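import Vale.Agent.Lib.P328.Coin.Main
import Vale.Agent.Lib.P328.Expl.NW

/-!
# P328: an almost-uniform sampler for contingency tables with arbitrary margins,
driven by fair coin flips only

Start at the north-west corner table.  One step reads `2a + 2a' + B` fair bits as five integers
`p, q < 2^a`, `p', q' < 2^a'`, `u < 2^B`; if `p < q < m` and `p' < q' < n` it resets the `2 × 2`
block with rows `p, q` and columns `p', q'` to its table number `u mod blockLen`, otherwise it does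
nothing.
-/

namespace Vale.Agent.Results.P328.A_CoinSampler

open P328RC P328Coin P328X Finset

theorem tab_eq_of_rows {m n : ℕ} (hm : m ≤ 1) (r : Fin m → ℕ) (c : Fin n → ℕ) (X Y : Tab r c) :
    X = Y := by
  have : Subsingleton (Fin m) := Fin.subsingleton_iff_le_one.2 hm
  apply Tab.ext
  intro i j
  have hX := X.2.2 j
  have hY := Y.2.2 j
  rw [Fintype.sum_subsingleton _ i] at hX hY
  rw [hX, hY]

theorem tab_eq_of_cols {m n : ℕ} (hn : n ≤ 1) (r : Fin m → ℕ) (c : Fin n → ℕ) (X Y : Tab r c) :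
    X = Y := by
  have : Subsingleton (Fin n) := Fin.subsingleton_iff_le_one.2 hn
  apply Tab.ext
  intro i j
  have hX := X.2.1 i
  have hY := Y.2.1 i
  rw [Fintype.sum_subsingleton _ j] at hX hY
  rw [hX, hY]

/-- (1) For margins with equal totals the north-west corner array `nw r c` is a contingency table
with margins `r`, `c`.
(2) If `m ≤ 1` or `n ≤ 1` there is at most one table.
(3) Let `m, n ≥ 2`, `r`, `c` arbitrary, `N = ∑ r i`, `m ≤ 2^a`, `n ≤ 2^a'`,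
`t ≥ 2 · 4^a · 4^a' (m n (⌊log2 N⌋ + 1) + 2 j)` and `2^B ≥ t (N + 1) 2^(j+1)`.  For every table `X`
and every sequence `σ` of `t` seeds the array `run stepFun t σ X` is a table with margins `r`, `c`;
and if `σ` is uniformly distributed over all sequences of `t` seeds (that is, `t (2a + 2a' + B)`
fair coin flips), the law of this table is within total variation distance `2^(-j)` of the uniform
law on all tables with margins `r`, `c`. -/
theorem result :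
    (∀ (m n : ℕ) (r : Fin m → ℕ) (c : Fin n → ℕ), ∑ i, r i = ∑ j, c j →
      ∃ X0 : Tab r c, X0.1 = nw r c) ∧
    (∀ (m n : ℕ), (m ≤ 1 ∨ n ≤ 1) → ∀ (r : Fin m → ℕ) (c : Fin n → ℕ) (X Y : Tab r c), X = Y) ∧
    (∀ (m n : ℕ), 2 ≤ m → 2 ≤ n → ∀ (r : Fin m → ℕ) (c : Fin n → ℕ) (a a' B j t : ℕ),
      m ≤ 2 ^ a → n ≤ 2 ^ a' →
      2 * 4 ^ a * 4 ^ a' * (m * n * (Nat.log 2 (∑ i, r i) + 1) + 2 * j) ≤ t →
      t * (∑ i, r i + 1) * 2 ^ (j + 1) ≤ 2 ^ B →
      ∀ X : Tab r c,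
        (∀ σ : Fin t → Seed (2 ^ a) (2 ^ a') (2 ^ B), ∃ Y : Tab r c, Y.1 = run stepFun t σ X.1) ∧
        (1 / 2) * ∑ Y : Tab r c,
          |((univ.filter fun σ : Fin t → Seed (2 ^ a) (2 ^ a') (2 ^ B) =>
                run stepFun t σ X.1 = Y.1).card : ℝ)
              / (Fintype.card (Fin t → Seed (2 ^ a) (2 ^ a') (2 ^ B)) : ℝ)
            - 1 / (Fintype.card (Tab r c) : ℝ)| ≤ (1 / 2) ^ j) := by
  refine ⟨fun m n r c hrc => ⟨⟨nw r c, nw_row r c hrc, nw_col r c hrc⟩, rfl⟩, ?_, ?_⟩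
  · intro m n h r c X Y
    rcases h with h | h
    · exact tab_eq_of_rows h r c X Y
    · exact tab_eq_of_cols h r c X Y
  intro m n hm hn r c a a' B j t ha ha' ht hB X
  refine ⟨fun σ => ⟨⟨run stepFun t σ X.1, run_mem t σ X⟩, rfl⟩, ?_⟩
  have ht' : 2 * (2 ^ a) ^ 2 * (2 ^ a') ^ 2 * (m * n * (Nat.log 2 (∑ i, r i) + 1) + 2 * j) ≤ t := by
    have e1 : (2 ^ a) ^ 2 = 4 ^ a := by rw [← pow_mul, mul_comm, pow_mul]; norm_num
    have e2 : (2 ^ a') ^ 2 = 4 ^ a' := by rw [← pow_mul, mul_comm, pow_mul]; norm_num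
    rw [e1, e2]
    exact ht
  have h := coin_sampler (r := r) (c := c) hm hn ha ha' (D := 2 ^ B) (by positivity) j t ht' X
  have hcard : (Fintype.card (Fin t → Seed (2 ^ a) (2 ^ a') (2 ^ B)) : ℝ)
      = (((2 ^ a : ℕ) : ℝ) ^ 2 * ((2 ^ a' : ℕ) : ℝ) ^ 2 * ((2 ^ B : ℕ) : ℝ)) ^ t := by
    simp only [Fintype.card_fun, Fintype.card_prod, Fintype.card_fin]
    push_cast
    ring
  rw [hcard]
  have hD : (0 : ℝ) < ((2 ^ B : ℕ) : ℝ) := by positivity
  have hB' : (t : ℝ) * (((∑ i, r i : ℕ) : ℝ) + 1) * 2 ^ (j + 1) ≤ ((2 ^ B : ℕ) : ℝ) := by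
    exact_mod_cast hB
  have h2 : (t : ℝ) * (((∑ i, r i : ℕ) : ℝ) + 1) / ((2 ^ B : ℕ) : ℝ) ≤ (1 / 2) ^ (j + 1) := by
    rw [div_le_iff₀ hD]
    have h3 : ((1 : ℝ) / 2) ^ (j + 1) * 2 ^ (j + 1) = 1 := by
      rw [← mul_pow]; norm_num
    have h4 : (0 : ℝ) < (1 / 2) ^ (j + 1) := by positivity
    calc (t : ℝ) * (((∑ i, r i : ℕ) : ℝ) + 1)
        = (1 / 2) ^ (j + 1) * ((t : ℝ) * (((∑ i, r i : ℕ) : ℝ) + 1) * 2 ^ (j + 1)) := by
          rw [mul_comm ((1 / 2 : ℝ) ^ (j + 1)), mul_assoc, mul_comm ((2 : ℝ) ^ (j + 1)), h3, mul_one]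
      _ ≤ (1 / 2) ^ (j + 1) * ((2 ^ B : ℕ) : ℝ) := mul_le_mul_of_nonneg_left hB' h4.le
  have h5 : ((1 : ℝ) / 2) ^ (j + 1) + (1 / 2) ^ (j + 1) = (1 / 2) ^ j := by
    rw [pow_succ]; ring
  refine le_trans (le_of_eq ?_) (h.trans (by linarith))
  rfl

end Vale.Agent.Results.P328.A_CoinSampler
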