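import Vale.Agent.Lib.P328.RC.Main
import Vale.Agent.Lib.P328.JS2.Main
import Vale.Agent.Lib.P328.Expl.Blk
import Vale.Agent.Lib.P328.Expl.NW

/-!
# P328: an explicit almost-uniform sampler for contingency tables with arbitrary margins

Start at the north-west corner table; repeat: choose two rows, two columns and one integer in an
explicit interval uniformly at random and reset the `2 × 2` block accordingly.
-/

namespace Vale.Agent.Results.P328.A_ExplicitSampler

open P335 P328RC P328X Finset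

theorem pr_fin_nonempty (m : ℕ) (hm : 2 ≤ m) : (pr (Fin m)).Nonempty := by
  rw [← Finset.card_pos, card_pr_fin]
  exact Nat.choose_pos hm

theorem half_pow_le {ε : ℝ} (hε : 0 < ε) : (1 / 2 : ℝ) ^ (Nat.clog 2 ⌈1 / ε⌉₊ + 1) ≤ ε := by
  set j := Nat.clog 2 ⌈1 / ε⌉₊ with hj
  have h1 : ((⌈1 / ε⌉₊ : ℕ) : ℝ) ≤ (2 : ℝ) ^ j := by
    exact_mod_cast Nat.le_pow_clog (by norm_num) _
  have h2 : 1 / ε ≤ (2 : ℝ) ^ j := (Nat.le_ceil _).trans h1
  have hp : (0 : ℝ) < 2 ^ j := by positivity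
  have h3 : 1 ≤ ε * 2 ^ j := by
    rw [div_le_iff₀ hε] at h2
    linarith
  have h4 : (1 / 2 : ℝ) ^ j * 2 ^ j = 1 := by
    rw [← mul_pow]
    norm_num
  have h5 : (0 : ℝ) < (1 / 2) ^ j := by positivity
  rw [pow_succ]
  nlinarith

theorem tab_eq_of_rows {m n : ℕ} (hm : m ≤ 1) (r : Fin m → ℕ) (c : Fin n → ℕ) (X Y : Tab r c) :
    X = Y := by
  have : Subsingleton (Fin m) := Fin.subsingleton_iff_le_one.2 hm
  apply Tab.ext
  intro i j
  have hX := X.2.2 j
  have hY := Y.2.2 j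
  rw [Fintype.sum_subsingleton _ i] at hX hY
  rw [hX, hY]

theorem tab_eq_of_cols {m n : ℕ} (hn : n ≤ 1) (r : Fin m → ℕ) (c : Fin n → ℕ) (X Y : Tab r c) :
    X = Y := by
  have : Subsingleton (Fin n) := Fin.subsingleton_iff_le_one.2 hn
  apply Tab.ext
  intro i j
  have hX := X.2.1 i
  have hY := Y.2.1 i
  rw [Fintype.sum_subsingleton _ j] at hX hY
  rw [hX, hY]

open Classical in
/-- (1) For margins `r`, `c` with equal totals the north-west corner array `nw r c` is a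
contingency table with margins `r`, `c`.
(2) If `m ≤ 1` or `n ≤ 1` there is at most one table.
(3) Let `m, n ≥ 2`, `r`, `c` arbitrary, `N = ∑ r i`.  For every table `X`, rows `b.1 < b.2`,
columns `b'.1 < b'.2` and every integer `v` of the interval `[loB, hiB]` the updated array
`blk X b b' v` is again a table; `ker r c` (the law of one update with the two rows, the two columns
and `v` uniform) is a Markov kernel; and from every starting table, after
`t ≥ 2 C(m,2) C(n,2) (m n (⌊log2 N⌋ + 1) + 2 ⌈log2 ⌈1/ε⌉⌉)` updates the law of the table is within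
total variation distance `ε` of the uniform law on all tables with margins `r`, `c`. -/
theorem result :
    (∀ (m n : ℕ) (r : Fin m → ℕ) (c : Fin n → ℕ), ∑ i, r i = ∑ j, c j →
      ∃ X0 : Tab r c, X0.1 = nw r c) ∧
    (∀ (m n : ℕ), (m ≤ 1 ∨ n ≤ 1) → ∀ (r : Fin m → ℕ) (c : Fin n → ℕ) (X Y : Tab r c), X = Y) ∧
    (∀ (m n : ℕ), 2 ≤ m → 2 ≤ n → ∀ (r : Fin m → ℕ) (c : Fin n → ℕ),
      (∀ (X : Tab r c) (b : Fin m × Fin m) (b' : Fin n × Fin n) (v : ℕ), b.1 < b.2 → b'.1 < b'.2 →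
        loB X.1 b b' ≤ v → v ≤ hiB X.1 b b' → ∃ Y : Tab r c, Y.1 = blk X.1 b b' v) ∧
      (∀ X Y : Tab r c, 0 ≤ ker r c X Y) ∧
      (∀ X : Tab r c, ∑ Y, ker r c X Y = 1) ∧
      (∀ ε : ℝ, 0 < ε → ∀ t : ℕ,
        2 * m.choose 2 * n.choose 2
            * (m * n * (Nat.log 2 (∑ i, r i) + 1) + 2 * Nat.clog 2 ⌈1 / ε⌉₊) ≤ t →
        ∀ X : Tab r c,
          (1 / 2) * ∑ Y, |(ker r c ^ t) X Y - 1 / (Fintype.card (Tab r c) : ℝ)| ≤ ε)) := by
  refine ⟨fun m n r c hrc => ⟨⟨nw r c, nw_row r c hrc, nw_col r c hrc⟩, rfl⟩, ?_, ?_⟩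
  · intro m n h r c X Y
    rcases h with h | h
    · exact tab_eq_of_rows h r c X Y
    · exact tab_eq_of_cols h r c X Y
  intro m n hm hn r c
  refine ⟨?_, ?_, ?_, ?_⟩
  · intro X b b' v hb hb' h1 h2
    exact ⟨blkTab X b b' v (ne_of_lt hb) (ne_of_lt hb') h1 h2, rfl⟩
  · intro X Y
    unfold ker
    positivity
  · intro X
    rw [ker_eq_hbMat]
    exact hbMat_row (pr_fin_nonempty m hm) (pr_fin_nonempty n hn) X
  · intro ε hε t ht X
    rw [ker_eq_hbMat]
    have h := mixing_of_JS (r := r) (c := c) (cst := 1) one_pos P328JS2.JS_one P328JS2.JS_one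
      (pr_fin_nonempty m hm) (pr_fin_nonempty n hn) (2 * m.choose 2 * n.choose 2)
      (by rw [card_pr_fin, card_pr_fin]; push_cast; nlinarith) (Nat.clog 2 ⌈1 / ε⌉₊) t
      (by simpa using ht) X
    exact h.trans (half_pow_le hε)

end Vale.Agent.Results.P328.A_ExplicitSampler
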