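import Vale.Agent.Lib.P328.JS2.Main
import Vale.Agent.Lib.P328.RC.Main

/-!
# P328: the `2 × 2` heat-bath chain on contingency tables mixes in polynomial time,
for all numbers of rows and columns and all margins
-/

namespace Vale.Agent.Results.P328.A_RapidMixing

open P335 P328RC Finset

theorem card_pr_fin (m : ℕ) : (pr (Fin m)).card = m.choose 2 := by
  unfold pr
  rw [Finset.card_filter, Fintype.sum_prod_type_right]
  have h : ∀ b : Fin m, ∑ a : Fin m, (if (a, b).1 < (a, b).2 then 1 else 0) = (b : ℕ) := by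
    intro b
    rw [← Finset.card_filter]
    have : (univ.filter fun a : Fin m => (a, b).1 < (a, b).2) = Finset.Iio b := by
      ext a; simp
    rw [this, Fin.card_Iio]
  simp only [h]
  rw [Fin.sum_univ_eq_sum_range (fun i => i) m, Finset.sum_range_id, Nat.choose_two_right]

theorem pr_fin_nonempty (m : ℕ) (hm : 2 ≤ m) : (pr (Fin m)).Nonempty := by
  rw [← Finset.card_pos, card_pr_fin]
  exact Nat.choose_pos hm

theorem hbMat_nonneg {m n : ℕ} (r : Fin m → ℕ) (c : Fin n → ℕ) (X Y : Tab r c) :
    0 ≤ hbMat r c X Y := by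
  classical
  unfold hbMat
  apply div_nonneg
  · refine Finset.sum_nonneg fun b _ => Finset.sum_nonneg fun b' _ => ?_
    split_ifs
    · positivity
    · exact le_refl _
  · positivity

/-- with at most one row the table is determined by its column sums -/
theorem subsingleton_rows {m n : ℕ} (hm : m ≤ 1) (r : Fin m → ℕ) (c : Fin n → ℕ) :
    Subsingleton (Tab r c) := by
  refine ⟨fun X Y => Tab.ext fun i j => ?_⟩
  have hi : ∀ i' : Fin m, i' = i := fun i' => Fin.ext (by have := i.2; have := i'.2; omega)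
  have hX := X.2.2 j
  have hY := Y.2.2 j
  rw [Finset.sum_eq_single i (fun b _ hb => absurd (hi b) hb)
    (fun h => absurd (mem_univ i) h)] at hX hY
  rw [hX, hY]

/-- with at most one column the table is determined by its row sums -/
theorem subsingleton_cols {m n : ℕ} (hn : n ≤ 1) (r : Fin m → ℕ) (c : Fin n → ℕ) :
    Subsingleton (Tab r c) := by
  refine ⟨fun X Y => Tab.ext fun i j => ?_⟩
  have hj : ∀ j' : Fin n, j' = j := fun j' => Fin.ext (by have := j.2; have := j'.2; omega)
  have hX := X.2.1 i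
  have hY := Y.2.1 i
  rw [Finset.sum_eq_single j (fun b _ hb => absurd (hj b) hb)
    (fun h => absurd (mem_univ j) h)] at hX hY
  rw [hX, hY]

open Classical in
/-- For all `m, n ≥ 2` and ALL margins `r`, `c`: `hbMat r c` is a symmetric stochastic matrix on the
set `Tab r c` of contingency tables, and from every starting table `X` the law of the chain after
`t ≥ 2 C(m,2) C(n,2) (m n (⌊log₂ N⌋ + 1) + 2 j)` steps (`N` the total of the table) is within total
variation distance `2^{-(j+1)}` of the uniform law.  If `m ≤ 1` or `n ≤ 1` there is at most one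
table. -/
theorem result :
    (∀ (m n : ℕ), 2 ≤ m → 2 ≤ n → ∀ (r : Fin m → ℕ) (c : Fin n → ℕ),
      (∀ X Y : Tab r c, 0 ≤ hbMat r c X Y ∧ hbMat r c X Y = hbMat r c Y X) ∧
      (∀ X : Tab r c, ∑ Y, hbMat r c X Y = 1) ∧
      (∀ (j t : ℕ),
        2 * (m.choose 2 * n.choose 2) * (m * n * (Nat.log 2 (∑ i, r i) + 1) + 2 * j) ≤ t →
        ∀ X : Tab r c,
          (1 / 2) * ∑ Y, |(hbMat r c ^ t) X Y - 1 / (Fintype.card (Tab r c) : ℝ)|
            ≤ (1 / 2) ^ (j + 1))) ∧
    (∀ (m n : ℕ) (r : Fin m → ℕ) (c : Fin n → ℕ), m ≤ 1 ∨ n ≤ 1 → Subsingleton (Tab r c)) := by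
  refine ⟨fun m n hm hn r c => ⟨fun X Y => ⟨hbMat_nonneg r c X Y, hbMat_symm X Y⟩,
    fun X => hbMat_row (pr_fin_nonempty m hm) (pr_fin_nonempty n hn) X, ?_⟩, ?_⟩
  · intro j t ht X
    have h := mixing_of_JS (r := r) (c := c) (cst := 1) one_pos P328JS2.JS_one P328JS2.JS_one
      (pr_fin_nonempty m hm) (pr_fin_nonempty n hn) (2 * (m.choose 2 * n.choose 2))
      (by rw [card_pr_fin, card_pr_fin]; push_cast; simp) j t (by simpa using ht) X
    exact h
  · intro m n r c h
    rcases h with h | h
    · exact subsingleton_rows h r c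
    · exact subsingleton_cols h r c

end Vale.Agent.Results.P328.A_RapidMixing
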