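import Vale.Agent.Lib.P328.JS2.Main
import Vale.Agent.Lib.P328.RC.Main
import Vale.Agent.Lib.P328.Sampler.Law
import Vale.Agent.Lib.P328.Sampler.Small
import Vale.Agent.Lib.P328.SelfReduction

/-!
# P328: an almost-uniform sampler for contingency tables with arbitrary margins

The sampler is the randomized procedure `P328S.sampler X0 t` (a `PMF`): start from a table `X0` and
repeat `t` times: draw a pair of rows, a pair of columns and an integer `k` in an explicit interval,
all uniformly, and refill the `2 × 2` block so that its top left entry is `k`.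
-/

namespace Vale.Agent.Results.P328.A_Sampler

open P335 P328RC P328S Finset

open Classical in
/-- For ALL `m`, `n` and ALL margins `r`, `c`: (1) if the margins have the same total there is a
table; (2) from every table `X0`, after `t ≥ 2 C(m,2) C(n,2) (m n (⌊log₂ N⌋ + 1) + 2 j)` steps the
sampler outputs only tables with margins `r`, `c`, and its output law is within total variation
distance `2^{-(j+1)}` of the uniform law on these tables. -/
theorem result (m n : ℕ) (r : Fin m → ℕ) (c : Fin n → ℕ) :
    (∑ i, r i = ∑ j, c j → Nonempty (Tab r c)) ∧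
    ∀ (X0 : Tab r c) (j t : ℕ),
      2 * (m.choose 2 * n.choose 2) * (m * n * (Nat.log 2 (∑ i, r i) + 1) + 2 * j) ≤ t →
      (∀ Z : Fin m → Fin n → ℕ, sampler X0.1 t Z ≠ 0 →
        (∀ i, ∑ j, Z i j = r i) ∧ (∀ j, ∑ i, Z i j = c j)) ∧
      (1 / 2) * ∑ Y : Tab r c, |(sampler X0.1 t Y.1).toReal - 1 / (Fintype.card (Tab r c) : ℝ)|
        ≤ (1 / 2) ^ (j + 1) := by
  refine ⟨fun h => ?_, fun X0 j t ht => ?_⟩
  · obtain ⟨X, hX⟩ := Vale.Agent.Lib.P328.Omega_nonempty _ r c rfl h.symm
    exact ⟨⟨X, hX⟩⟩
  · by_cases h : (pr (Fin m)).Nonempty ∧ (pr (Fin n)).Nonempty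
    · rw [sampler_eq_law h.1 h.2]
      refine ⟨fun Z hZ => ?_, ?_⟩
      · obtain ⟨Y, rfl⟩ := law_support h.1 h.2 X0 t Z ((PMF.mem_support_iff _ _).2 hZ)
        exact Y.2
      · have key := mixing_of_JS (r := r) (c := c) (cst := 1) one_pos P328JS2.JS_one
          P328JS2.JS_one h.1 h.2 (2 * (m.choose 2 * n.choose 2))
          (by rw [card_pr_fin, card_pr_fin]; push_cast; simp) j t (by simpa using ht) X0
        have e : ∀ Y : Tab r c, ((law h.1 h.2 X0.1 t) Y.1).toReal = (hbMat r c ^ t) X0 Y :=
          fun Y => law_toReal h.1 h.2 X0 t Y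
        simp only [e]
        exact key
    · rw [sampler_eq_pure h]
      have hsub : Subsingleton (Tab r c) := by
        by_cases hm : m ≤ 1
        · exact subsingleton_rows hm r c
        · by_cases hn : n ≤ 1
          · exact subsingleton_cols hn r c
          · exact absurd ⟨pr_fin_nonempty m (by omega), pr_fin_nonempty n (by omega)⟩ h
      refine ⟨fun Z hZ => ?_, ?_⟩
      · have hZ' : Z = X0.1 := by
          by_contra hne
          exact hZ (by rw [PMF.pure_apply, if_neg hne])
        rw [hZ']
        exact X0.2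
      · have hcard : Fintype.card (Tab r c) = 1 :=
          Fintype.card_eq_one_iff.2 ⟨X0, fun Y => Subsingleton.elim _ _⟩
        have hz : ∀ Y ∈ (univ : Finset (Tab r c)),
            |((PMF.pure X0.1 : PMF (Fin m → Fin n → ℕ)) Y.1).toReal
              - 1 / (Fintype.card (Tab r c) : ℝ)| = 0 := by
          intro Y _
          rw [hcard, Subsingleton.elim Y X0, PMF.pure_apply, if_pos rfl]
          simp
        rw [Finset.sum_eq_zero hz]
        simp

end Vale.Agent.Results.P328.A_Sampler
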