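import Vale.Agent.Lib.P328.JS2.Main
import Vale.Agent.Lib.P328.RC.Main
import Vale.Agent.Lib.P328.Final.Step

/-!
# P328: the `2 × 2` heat-bath chain on contingency tables mixes rapidly for all margins
-/

namespace Vale.Agent.Results.P328.A_SamplerStep

open P335 P328RC Finset

theorem card_pr_le (m : ℕ) : 2 * (pr (Fin m)).card ≤ m ^ 2 := by
  have h1 : (pr (Fin m)).card = (univ.filter (fun p : Fin m × Fin m => p.2 < p.1)).card := by
    unfold pr
    apply Finset.card_bij (fun p _ => (p.2, p.1))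
    · intro p hp
      simpa using hp
    · intro p _ q _ h
      simp only [Prod.mk.injEq] at h
      exact Prod.ext h.2 h.1
    · intro p hp
      exact ⟨(p.2, p.1), by simpa using hp, rfl⟩
  have h2 : Disjoint (pr (Fin m)) (univ.filter (fun p : Fin m × Fin m => p.2 < p.1)) := by
    unfold pr
    rw [Finset.disjoint_filter]
    intro p _ h h'
    exact absurd h (not_lt.2 h'.le)
  have h3 := Finset.card_le_univ (pr (Fin m) ∪ univ.filter (fun p : Fin m × Fin m => p.2 < p.1))
  rw [Finset.card_union_of_disjoint h2, ← h1] at h3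
  simp only [Fintype.card_prod, Fintype.card_fin] at h3
  nlinarith

theorem pr_nonempty (m : ℕ) (hm : 2 ≤ m) : (pr (Fin m)).Nonempty :=
  ⟨(⟨0, by omega⟩, ⟨1, by omega⟩), mem_pr.2 (by simp [Fin.lt_def])⟩

open Classical in
/-- (1) Rapid mixing of the `2 × 2` heat-bath chain for all `m, n ≥ 2` and all margins: total
variation distance at most `2^{-(j+1)}` from every start after
`m^2 n^2 (m n (log2 N + 1) + 2 j)` steps.
(2) One step is explicit: the tables agreeing with `X` outside the block are parametrised by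
their corner entry, which runs over an explicit interval.
(3) With at most one row or at most one column there is at most one table. -/
theorem result :
    (∀ (m n : ℕ), 2 ≤ m → 2 ≤ n → ∀ (r : Fin m → ℕ) (c : Fin n → ℕ) (j t : ℕ),
      m ^ 2 * n ^ 2 * (m * n * (Nat.log 2 (∑ i, r i) + 1) + 2 * j) ≤ t →
      ∀ X : Tab r c,
        (1 / 2) * ∑ Y, |(hbMat r c ^ t) X Y - 1 / (Fintype.card (Tab r c) : ℝ)|
          ≤ (1 / 2) ^ (j + 1)) ∧
    (∀ (m n : ℕ) (r : Fin m → ℕ) (c : Fin n → ℕ) (b : Fin m × Fin m) (b' : Fin n × Fin n),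
      b.1 < b.2 → b'.1 < b'.2 → ∀ X : Tab r c,
      (∀ Y Y' : Tab r c, RX b b' X Y → RX b b' X Y' → Y.1 b.1 b'.1 = Y'.1 b.1 b'.1 → Y = Y') ∧
      (∀ v : ℕ, (∃ Y : Tab r c, RX b b' X Y ∧ Y.1 b.1 b'.1 = v) ↔
        X.1 b.1 b'.1 - min (X.1 b.1 b'.1) (X.1 b.2 b'.2) ≤ v ∧
          v ≤ X.1 b.1 b'.1 + min (X.1 b.1 b'.2) (X.1 b.2 b'.1))) ∧
    (∀ (m n : ℕ), m ≤ 1 ∨ n ≤ 1 → ∀ (r : Fin m → ℕ) (c : Fin n → ℕ) (X Y : Tab r c), X = Y) := by
  refine ⟨?_, ?_, ?_⟩
  · intro m n hm hn r c j t ht X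
    have h := mixing_of_JS (r := r) (c := c) (cst := 1) one_pos P328JS2.JS_one P328JS2.JS_one
      (pr_nonempty m hm) (pr_nonempty n hn) (m ^ 2 * n ^ 2) (by
        have h1 : 2 * ((pr (Fin m)).card : ℝ) ≤ (m : ℝ) ^ 2 := by exact_mod_cast card_pr_le m
        have h2 : 2 * ((pr (Fin n)).card : ℝ) ≤ (n : ℝ) ^ 2 := by exact_mod_cast card_pr_le n
        have h0 : (0 : ℝ) ≤ ((pr (Fin m)).card : ℝ) := Nat.cast_nonneg _
        have h0' : (0 : ℝ) ≤ ((pr (Fin n)).card : ℝ) := Nat.cast_nonneg _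
        have h3 : (2 * ((pr (Fin m)).card : ℝ)) * (2 * ((pr (Fin n)).card : ℝ))
            ≤ (m : ℝ) ^ 2 * (n : ℝ) ^ 2 :=
          mul_le_mul h1 h2 (by positivity) (by positivity)
        push_cast
        nlinarith [mul_nonneg h0 h0']) j t (by simpa using ht) X
    exact h
  · intro m n r c b b' hb hb' X
    exact ⟨fun Y Y' h h' hv => P328Final.RX_unique hb.ne hb'.ne h h' hv,
      fun v => P328Final.RX_range hb.ne hb'.ne X v⟩
  · intro m n hmn r c X Y
    rcases hmn with h | h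
    · have : Subsingleton (Fin m) := Fin.subsingleton_iff_le_one.2 h
      exact P328Final.tab_subsingleton_row X Y
    · have : Subsingleton (Fin n) := Fin.subsingleton_iff_le_one.2 h
      exact P328Final.tab_subsingleton_col X Y

end Vale.Agent.Results.P328.A_SamplerStep
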