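import Mathlib
import Vale.Agent.Lib.P328.BlockMoves

open Finset Vale.Agent.Lib.P328

namespace Vale.Agent.Results.P328.HeatBathDiameter

/-- The set `Ω(r,c)` of contingency tables with row sums `r` and column sums `c`. -/
def Omega {m n : ℕ} (r : Fin m → ℕ) (c : Fin n → ℕ) : Set (Fin m → Fin n → ℕ) :=
  {X | (∀ i, ∑ j, X i j = r i) ∧ (∀ j, ∑ i, X i j = c j)}

/-- Transition graph of the `2 × 2` heat-bath chain on `Ω(r,c)`: two distinct tables are adjacent
when they agree outside the subtable with rows `i, i'` and columns `j, j'`. -/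
def heatBathGraph {m n : ℕ} (r : Fin m → ℕ) (c : Fin n → ℕ) : SimpleGraph (Omega r c) where
  Adj X Y := X ≠ Y ∧ ∃ i i' j j', ∀ a b, ¬((a = i ∨ a = i') ∧ (b = j ∨ b = j')) → X.1 a b = Y.1 a b
  symm := ⟨by
    rintro X Y ⟨hne, i, i', j, j', h⟩
    exact ⟨hne.symm, i, i', j, j', fun a b hab => (h a b hab).symm⟩⟩
  loopless := ⟨fun X h => h.1 rfl⟩

lemma mem_Omega_of_sameMargins {m n : ℕ} {r : Fin m → ℕ} {c : Fin n → ℕ}
    {X Y : Fin m → Fin n → ℕ} (hX : X ∈ Omega r c) (h : SameMargins X Y) : Y ∈ Omega r c :=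
  ⟨fun i => (h.1 i).symm.trans (hX.1 i), fun j => (h.2 j).symm.trans (hX.2 j)⟩

lemma walk_of_reach {m n : ℕ} {r : Fin m → ℕ} {c : Fin n → ℕ} {k : ℕ}
    {X Y : Fin m → Fin n → ℕ} (h : Reach k X Y) : ∀ (hX : X ∈ Omega r c) (hY : Y ∈ Omega r c),
    ∃ w : (heatBathGraph r c).Walk ⟨X, hX⟩ ⟨Y, hY⟩, w.length ≤ k := by
  induction h with
  | refl X => intro hX hY; exact ⟨SimpleGraph.Walk.nil, by simp⟩
  | @tail k X Y Z hXY hs ih =>
    intro hX hZ
    have hY : Y ∈ Omega r c := mem_Omega_of_sameMargins hX hXY.sameMargins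
    obtain ⟨w, hw⟩ := ih hX hY
    by_cases hYZ : Y = Z
    · subst hYZ
      exact ⟨w, by omega⟩
    · have hadj : (heatBathGraph r c).Adj ⟨Y, hY⟩ ⟨Z, hZ⟩ :=
        ⟨fun hc => hYZ (congrArg Subtype.val hc), hs.2⟩
      exact ⟨w.concat hadj, by rw [SimpleGraph.Walk.length_concat]; omega⟩

/-- cells in which two tables differ -/
def diffSet {m n : ℕ} (X Y : Fin m → Fin n → ℕ) : Finset (Fin m × Fin n) :=
  univ.filter (fun p => X p.1 p.2 ≠ Y p.1 p.2)

lemma diffSet_walk {m n : ℕ} {r : Fin m → ℕ} {c : Fin n → ℕ} {X Y : Omega r c}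
    (w : (heatBathGraph r c).Walk X Y) : (diffSet X.1 Y.1).card ≤ 4 * w.length := by
  induction w with
  | nil => simp [diffSet]
  | @cons X Y Z hadj w ih =>
    have hadj' := hadj
    obtain ⟨-, i, i', j, j', h⟩ := hadj'
    have h1 : diffSet X.1 Z.1 ⊆ (({i, i'} : Finset (Fin m)) ×ˢ ({j, j'} : Finset (Fin n))) ∪
        diffSet Y.1 Z.1 := by
      intro p hp
      simp only [diffSet, mem_filter, mem_univ, true_and, mem_union, mem_product, mem_insert,
        mem_singleton] at hp ⊢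
      by_contra hcon
      rw [not_or] at hcon
      apply hp
      rw [h p.1 p.2 hcon.1]
      exact not_not.1 hcon.2
    have h2 : ((({i, i'} : Finset (Fin m)) ×ˢ ({j, j'} : Finset (Fin n)))).card ≤ 4 := by
      rw [card_product]
      have a1 : ({i, i'} : Finset (Fin m)).card ≤ 2 := card_le_two
      have a2 : ({j, j'} : Finset (Fin n)).card ≤ 2 := card_le_two
      nlinarith
    have h3 := (card_le_card h1).trans (card_union_le _ _)
    rw [SimpleGraph.Walk.length_cons]
    omega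

theorem result :
    (∀ (m n : ℕ) (r : Fin m → ℕ) (c : Fin n → ℕ) (X Y : Omega r c),
      ∃ w : (heatBathGraph r c).Walk X Y, w.length ≤ 4 * (m * n)) ∧
    (∀ m n : ℕ, 2 ≤ m → 2 ≤ n → ∃ (r : Fin m → ℕ) (c : Fin n → ℕ) (X Y : Omega r c),
      ∀ w : (heatBathGraph r c).Walk X Y, m * n ≤ 4 * w.length) := by
  constructor
  · intro m n r c X Y
    have hm : SameMargins X.1 Y.1 :=
      ⟨fun i => (X.2.1 i).trans (Y.2.1 i).symm, fun j => (X.2.2 j).trans (Y.2.2 j).symm⟩
    obtain ⟨k, hk, hreach⟩ := reach_bound X.1 Y.1 hm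
    obtain ⟨w, hw⟩ := walk_of_reach hreach X.2 Y.2
    refine ⟨w, hw.trans ?_⟩
    simpa using hk
  · intro m n hm hn
    obtain ⟨m', rfl⟩ : ∃ m', m = m' + 1 := ⟨m - 1, by omega⟩
    obtain ⟨n', rfl⟩ : ∃ n', n = n' + 1 := ⟨n - 1, by omega⟩
    set X : Fin (m' + 1) → Fin (n' + 1) → ℕ := fun a b =>
      if a = 0 then (if b = 0 then 0 else m') else (if b = 0 then n' else 0) with hX
    set Y : Fin (m' + 1) → Fin (n' + 1) → ℕ := fun a b =>
      if a = 0 then (if b = 0 then m' * n' else 0) else (if b = 0 then 0 else 1) with hY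
    have hXmem : X ∈ Omega (fun i => ∑ j, X i j) (fun j => ∑ i, X i j) :=
      ⟨fun _ => rfl, fun _ => rfl⟩
    have hYmem : Y ∈ Omega (fun i => ∑ j, X i j) (fun j => ∑ i, X i j) := by
      constructor
      · intro i
        by_cases hi : i = 0
        · simp [hX, hY, hi, Fin.sum_univ_succ, Fin.succ_ne_zero, mul_comm]
        · simp [hX, hY, hi, Fin.sum_univ_succ, Fin.succ_ne_zero]
      · intro j
        by_cases hj : j = 0
        · simp [hX, hY, hj, Fin.sum_univ_succ, Fin.succ_ne_zero]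
        · simp [hX, hY, hj, Fin.sum_univ_succ, Fin.succ_ne_zero]
    refine ⟨_, _, ⟨X, hXmem⟩, ⟨Y, hYmem⟩, ?_⟩
    intro w
    have h1 := diffSet_walk w
    have h2 : diffSet X Y = univ := by
      apply eq_univ_of_forall
      rintro ⟨a, b⟩
      simp only [diffSet, mem_filter, mem_univ, true_and, hX, hY]
      have hm' : 0 < m' := by omega
      have hn' : 0 < n' := by omega
      by_cases ha : a = 0 <;> by_cases hb : b = 0 <;> simp [ha, hb]
      · constructor <;> omega
      · omega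
      · omega
    rw [h2] at h1
    simpa using h1

end Vale.Agent.Results.P328.HeatBathDiameter
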