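import Mathlib
import Vale.Agent.Lib.P328.Omega
import Vale.Agent.Lib.P328.SelfReduction

open Finset Vale.Agent.Lib.P328

namespace Vale.Agent.Results.P328.SelfReductionChain

/-- A self-reduction chain of length `S ≤ 1 + m n log N` for arbitrary margins: at each step
`t` is subtracted from one row margin and one column margin, the number of tables of the smaller
instance equals the number of tables `X` of the larger instance with `X i j ≥ t`, and this is at
least a `1 / (m n)` fraction of all tables of the larger instance.  The chain ends at the zero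
margins, which have exactly one table. -/
theorem result (m n : ℕ) (hm : 0 < m) (hn : 0 < n) (r : Fin m → ℕ) (c : Fin n → ℕ) (N : ℕ)
    (hr : ∑ i, r i = N) (hc : ∑ j, c j = N) :
    ∃ (S : ℕ) (R : ℕ → Fin m → ℕ) (C : ℕ → Fin n → ℕ),
      (S : ℝ) ≤ 1 + (m * n : ℝ) * Real.log N ∧
      R 0 = r ∧ C 0 = c ∧ R S = 0 ∧ C S = 0 ∧ (Omega (R S) (C S)).ncard = 1 ∧
      ∀ s < S, ∃ (i : Fin m) (j : Fin n) (t : ℕ),
        R s = R (s + 1) + Pi.single i t ∧ C s = C (s + 1) + Pi.single j t ∧
        {X | X ∈ Omega (R s) (C s) ∧ t ≤ X i j}.ncard = (Omega (R (s + 1)) (C (s + 1))).ncard ∧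
        (Omega (R s) (C s)).ncard ≤ m * n * (Omega (R (s + 1)) (C (s + 1))).ncard := by
  obtain ⟨S, R, C, -, hS, hR0, hC0, hRS, hCS, hstep⟩ := chain hm hn N r c hr hc
  refine ⟨S, R, C, hS, hR0, hC0, hRS, hCS, ?_, hstep⟩
  rw [hRS, hCS, Omega_zero]
  exact Set.ncard_singleton 0

end Vale.Agent.Results.P328.SelfReductionChain
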