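import Vale.Agent.Lib.P328.RC.Main

/-!
# P328: rapid mixing of the `2 × 2` heat-bath chain on contingency tables with arbitrary
margins is reduced to one inequality about two-rowed tables
-/

namespace Vale.Agent.Results.P328.TwoRowReduction

open P335 P328RC Finset

theorem card_pr_fin (m : ℕ) : (pr (Fin m)).card = m.choose 2 := by
  unfold pr
  rw [Finset.card_filter, Fintype.sum_prod_type_right]
  have h : ∀ b : Fin m, ∑ a : Fin m, (if (a, b).1 < (a, b).2 then 1 else 0) = (b : ℕ) := by
    intro b
    rw [← Finset.card_filter]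
    have : (univ.filter fun a : Fin m => (a, b).1 < (a, b).2) = Finset.Iio b := by
      ext a; simp
    rw [this, Fin.card_Iio]
  simp only [h]
  rw [Fin.sum_univ_eq_sum_range (fun i => i) m, Finset.sum_range_id, Nat.choose_two_right]

theorem pr_fin_nonempty (m : ℕ) (hm : 2 ≤ m) : (pr (Fin m)).Nonempty := by
  rw [← Finset.card_pos, card_pr_fin]
  exact Nat.choose_pos hm

open Classical in
/-- (1) Unconditionally, for every pair of rows `b`, every pair of columns `b'` and every function
`f` on the tables, the cross term `2 <f - E_b f, f - E_b' f>` dominates the sum of the two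
two-row expressions with the explicit latent functions.
(2) If the two-row inequality `JS` holds with a constant `cst > 0` for systems with `m` and with
`n` sites, then the `2 × 2` heat-bath chain on the `m × n` tables with margins `r`, `c` is within
total variation `2^{-(j+1)}` of uniform after `M (m n (log2 N + 1) + 2 j)` steps, for every
`M ≥ 2 C(m,2) C(n,2) / cst^2`. -/
theorem result :
    (∀ (m n : ℕ) (r : Fin m → ℕ) (c : Fin n → ℕ) (b : Fin m × Fin m) (b' : Fin n × Fin n),
      b.1 ≠ b.2 → b'.1 ≠ b'.2 → ∀ f : Tab r c → ℝ,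
      jsTerm (RR b) (RX b b') f (avg (RL b b') (avg (RC b') f))
        + jsTerm (RC b') (RX b b') f (avg (RL b b') (avg (RR b) f))
        ≤ 2 * dot (f - avg (RR b) f) (f - avg (RC b') f)) ∧
    (∀ (m n : ℕ) (cst : ℝ), 2 ≤ m → 2 ≤ n → 0 < cst → JS (Fin m) cst → JS (Fin n) cst →
      ∀ (r : Fin m → ℕ) (c : Fin n → ℕ) (M : ℕ),
      2 * ((m.choose 2 : ℝ) * (n.choose 2 : ℝ)) ≤ cst ^ 2 * M →
      ∀ (j t : ℕ), M * (m * n * (Nat.log 2 (∑ i, r i) + 1) + 2 * j) ≤ t →
      ∀ X : Tab r c,
        (1 / 2) * ∑ Y, |(hbMat r c ^ t) X Y - 1 / (Fintype.card (Tab r c) : ℝ)|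
          ≤ (1 / 2) ^ (j + 1)) := by
  refine ⟨fun m n r c b b' hb hb' f => cross_term b b' hb hb' f, ?_⟩
  intro m n cst hm hn hc hJm hJn r c M hM j t ht X
  have h := mixing_of_JS (r := r) (c := c) hc hJm hJn (pr_fin_nonempty m hm) (pr_fin_nonempty n hn)
    M (by rw [card_pr_fin, card_pr_fin]; exact hM) j t (by simpa using ht) X
  exact h

end Vale.Agent.Results.P328.TwoRowReduction
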